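import Mathlib

/-!
# Finitistic dimension when projectives have bounded injective dimension

In an abelian category with enough projectives, assume every projective object has injective
dimension at most `d`.  Then every object of finite projective dimension has projective
dimension at most `d`.
-/

namespace Vale.Agent.Lib.P176

open CategoryTheory Abelian Limits

universe v u

variable {C : Type u} [Category.{v} C] [Abelian C]

/-- One step of the descent. -/
theorem step [EnoughProjectives C] (d : ℕ)
    (hG : ∀ P : C, Projective P → HasInjectiveDimensionLT P (d + 1))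
    (X : C) (m : ℕ) (hm : d + 1 ≤ m) (hX : HasProjectiveDimensionLT X (m + 1)) :
    HasProjectiveDimensionLT X m := by
  let := HasExt.standard C
  rw [hasProjectiveDimensionLT_iff]
  intro i hi Y e
  rcases Nat.eq_or_lt_of_le hi with rfl | hlt
  · obtain ⟨p⟩ := EnoughProjectives.presentation Y
    have h : (ShortComplex.mk _ _ (kernel.condition p.f)).ShortExact :=
      { exact := ShortComplex.exact_kernel p.f }
    obtain ⟨x₂, rfl⟩ := Ext.covariant_sequence_exact₃ X h e rfl
      (Ext.eq_zero_of_hasProjectiveDimensionLT _ (m + 1) le_rfl)
    have : HasInjectiveDimensionLT p.p (d + 1) := hG p.p p.projective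
    rw [x₂.eq_zero_of_hasInjectiveDimensionLT (d + 1) hm, Ext.zero_comp]
  · exact e.eq_zero_of_hasProjectiveDimensionLT (m + 1) hlt

theorem hasProjectiveDimensionLT_of_gorenstein [EnoughProjectives C] (d : ℕ)
    (hG : ∀ P : C, Projective P → HasInjectiveDimensionLT P (d + 1))
    (X : C) (n : ℕ) (hX : HasProjectiveDimensionLT X n) :
    HasProjectiveDimensionLT X (d + 1) := by
  induction n with
  | zero => exact hasProjectiveDimensionLT_of_ge X 0 (d + 1) (Nat.zero_le _)
  | succ n ih =>
    by_cases h : d + 1 ≤ n
    · exact ih (step d hG X n h hX)
    · exact hasProjectiveDimensionLT_of_ge X (n + 1) (d + 1) (by omega)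

end Vale.Agent.Lib.P176
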