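import Vale.Agent.Lib.P176.Gorenstein

/-!
# Modules over rings whose projective modules have bounded injective dimension
-/

namespace Vale.Agent.Lib.P176

open CategoryTheory Abelian Limits

universe u

variable {A : Type u} [Ring A]

theorem projectiveDimension_le_of_gorenstein (d : ℕ)
    (hG : ∀ P : ModuleCat.{u} A, Projective P → injectiveDimension P ≤ d)
    (N : ModuleCat.{u} A) (hN : projectiveDimension N ≠ ⊤) :
    projectiveDimension N ≤ d := by
  rw [projectiveDimension_ne_top_iff] at hN
  obtain ⟨n, hn⟩ := hN
  rw [projectiveDimension_le_iff]
  refine hasProjectiveDimensionLT_of_gorenstein d ?_ N (n + 1) hn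
  intro P hP
  exact (injectiveDimension_le_iff P d).mp (hG P hP)

theorem projective_of_selfInjective
    (hQF : ∀ (P : Type u) [AddCommGroup P] [Module A P],
      Module.Projective A P → Module.Injective A P)
    (N : Type u) [AddCommGroup N] [Module A N]
    (hN : projectiveDimension (ModuleCat.of A N) ≠ ⊤) : Module.Projective A N := by
  have h := projectiveDimension_le_of_gorenstein (A := A) 0 ?_ (ModuleCat.of A N) hN
  · rw [projectiveDimension_le_iff, ← projective_iff_hasProjectiveDimensionLE_zero] at h
    exact (IsProjective.iff_projective N).mpr h
  · intro P hP
    have h1 : Module.Projective A P := (IsProjective.iff_projective P).mpr hP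
    have h2 : Module.Injective A P := hQF P h1
    have h3 : Injective P := Module.injective_object_of_injective_module A P
    rw [injectiveDimension_le_iff]
    exact injective_iff_hasInjectiveDimensionLT_one.mp h3

end Vale.Agent.Lib.P176
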